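import Vale.Agent.P201.Chain2

/-!
# P201: permanence of the zero divisor property

For a field `K`, the class of groups `G` such that `K[G]` has no nonzero zero divisors is closed
under (1) extensions whose kernel has a descending series of `G`-normal subgroups with trivial
intersection and good factors, (2) extensions with unique product quotient, and (3) local
embeddability.
-/

namespace Vale.Agent.Results.P201.Permanence

universe u v

theorem result (K : Type u) [Field K] :
    -- (1) kernels with a descending series with good factors
    (∀ (G : Type v) [Group G] (N : ℕ → Subgroup G) [∀ i, (N i).Normal],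
      Antitone N → (⨅ i, N i) = ⊥ → (∀ i, _root_.P201.GoodFactor K (N i) (N (i + 1))) →
      NoZeroDivisors (MonoidAlgebra K (G ⧸ N 0)) → NoZeroDivisors (MonoidAlgebra K G)) ∧
    -- (2) unique product quotients
    (∀ (G : Type v) [Group G] (N : Subgroup G) [N.Normal], UniqueProds (G ⧸ N) →
      NoZeroDivisors (MonoidAlgebra K N) → NoZeroDivisors (MonoidAlgebra K G)) ∧
    -- (3) local embeddability
    (∀ (G : Type v) [Group G],
      (∀ S : Finset G, ∃ (H : Type v) (_ : Group H) (φ : G → H),
        Set.InjOn φ (S : Set G) ∧ (∀ x ∈ S, ∀ y ∈ S, φ (x * y) = φ x * φ y) ∧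
        NoZeroDivisors (MonoidAlgebra K H)) →
      NoZeroDivisors (MonoidAlgebra K G)) := by
  refine ⟨?_, ?_, ?_⟩
  · intro G _ N _ hanti hinf hgood hQ
    exact _root_.P201.chain2 N hanti hinf hgood hQ
  · intro G _ N _ hU hN
    exact _root_.P201.up_quotient N hU hN
  · intro G _ h
    exact _root_.P201.local_embed h

end Vale.Agent.Results.P201.Permanence
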